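import Crest.Agent.R192.Iface

/-!
R192/M/Main: block M.  Characters of a cyclic group which are close to `1` on a ball and far from `1` at a long
generator (Fejér-kernel averaging).
-/

set_option autoImplicit false

open MeasureTheory Complex Crest.AlgebraR.L1 ProbabilityTheory
open scoped ContDiff ComplexConjugate Nat

noncomputable section

namespace Crest.Agent.R192

namespace M

variable {G : Type} [Group G]

theorem l_pow (L : Len G) (x : G) (n : ℕ) : L.l (x ^ n) ≤ n * L.l x := by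
  induction n with
  | zero => simp [L.l_one]
  | succ n ih =>
    rw [pow_succ]
    refine (L.l_mul _ _).trans ?_
    rw [Nat.succ_mul]
    omega

theorem l_zpow (L : Len G) (x : G) (n : ℤ) : L.l (x ^ n) ≤ n.natAbs * L.l x := by
  rcases Int.eq_nat_or_neg n with ⟨k, rfl | rfl⟩
  · simpa using l_pow L x k
  · rw [zpow_neg, L.l_inv]
    simpa using l_pow L x k

/-- `f` is a sum of monomials `z ^ m` with `y ^ m` of length at most `r` -/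
def Pos (L : Len G) (y : G) (r : ℕ) (f : ℂ → ℂ) : Prop :=
  ∃ (ι : Type) (s : Finset ι) (m : ι → ℤ), (∀ i ∈ s, L.l (y ^ m i) ≤ r) ∧
    ∀ z : ℂ, z ≠ 0 → f z = ∑ i ∈ s, z ^ m i

theorem Pos.mul {L : Len G} {y : G} {r r' : ℕ} {f g : ℂ → ℂ} (hf : Pos L y r f) (hg : Pos L y r' g) :
    Pos L y (r + r') (fun z => f z * g z) := by
  obtain ⟨ι, s, m, hm, hf⟩ := hf
  obtain ⟨κ, t, n, hn, hg⟩ := hg
  refine ⟨ι × κ, s ×ˢ t, fun p => m p.1 + n p.2, fun p hp => ?_, fun z hz => ?_⟩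
  · rw [Finset.mem_product] at hp
    show L.l (y ^ (m p.1 + n p.2)) ≤ _
    rw [zpow_add]
    exact (L.l_mul _ _).trans (add_le_add (hm _ hp.1) (hn _ hp.2))
  · show f z * g z = _
    rw [hf z hz, hg z hz, Finset.sum_mul_sum, Finset.sum_product]
    refine Finset.sum_congr rfl fun i _ => Finset.sum_congr rfl fun j _ => ?_
    rw [zpow_add₀ hz]

theorem Pos.prod {L : Len G} {y : G} {r : ℕ} (A : Finset ℤ) (f : ℤ → ℂ → ℂ)
    (h : ∀ a ∈ A, Pos L y r (f a)) : Pos L y (A.card * r) (fun z => ∏ a ∈ A, f a z) := by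
  classical
  induction A using Finset.induction_on with
  | empty =>
    refine ⟨Unit, {()}, fun _ => 0, fun _ _ => by simp [L.l_one], fun z _ => by simp⟩
  | insert a A ha ih =>
    have h1 := (h a (Finset.mem_insert_self _ _)).mul (ih fun b hb => h b (Finset.mem_insert_of_mem hb))
    rw [Finset.card_insert_of_notMem ha]
    have e : (A.card + 1) * r = r + A.card * r := by ring
    rw [e]
    simpa only [Finset.prod_insert ha] using h1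

/-- geometric sum -/
def Fs (N : ℕ) (a : ℤ) (z : ℂ) : ℂ := ∑ j ∈ Finset.range N, (z ^ a) ^ j

/-- Fejér kernel -/
def Kf (N : ℕ) (a : ℤ) (z : ℂ) : ℂ :=
  ∑ p ∈ Finset.range N ×ˢ Finset.range N, z ^ (a * ((p.1 : ℤ) - (p.2 : ℤ)))

theorem Kf_pos (L : Len G) (y : G) {R : ℕ} (N : ℕ) {a : ℤ} (ha : L.l (y ^ a) ≤ R) :
    Pos L y (N * R) (Kf N a) := by
  refine ⟨ℕ × ℕ, Finset.range N ×ˢ Finset.range N, fun p => a * ((p.1 : ℤ) - (p.2 : ℤ)), fun p hp => ?_,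
    fun z _ => rfl⟩
  rw [Finset.mem_product, Finset.mem_range, Finset.mem_range] at hp
  show L.l (y ^ (a * ((p.1 : ℤ) - (p.2 : ℤ)))) ≤ _
  rw [zpow_mul]
  refine (l_zpow L _ _).trans (Nat.mul_le_mul ?_ ha)
  omega

theorem Kf_eq (N : ℕ) (a : ℤ) {z : ℂ} (hz : ‖z‖ = 1) : Kf N a z = ((‖Fs N a z‖ ^ 2 : ℝ) : ℂ) := by
  have hz0 : z ≠ 0 := by
    rintro rfl
    simp at hz
  have hc : conj z = z⁻¹ := by
    rw [Complex.inv_def, Complex.normSq_eq_norm_sq, hz]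
    simp
  rw [← Complex.normSq_eq_norm_sq, ← Complex.mul_conj]
  unfold Kf Fs
  rw [map_sum, Finset.sum_mul_sum, Finset.sum_product]
  refine Finset.sum_congr rfl fun i _ => Finset.sum_congr rfl fun j _ => ?_
  rw [map_pow, map_zpow₀, hc, mul_sub, zpow_sub₀ hz0, zpow_mul, zpow_mul, zpow_natCast, zpow_natCast, inv_zpow,
    inv_pow, div_eq_mul_inv]

theorem Fs_bound (N : ℕ) (a : ℤ) {z : ℂ} (hz : ‖z‖ = 1) :
    ‖Fs N a z‖ ^ 2 * ‖z ^ a - 1‖ ^ 2 ≤ 4 := by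
  rw [← mul_pow, ← norm_mul]
  unfold Fs
  rw [geom_sum_mul]
  have h : ‖(z ^ a) ^ N - 1‖ ≤ 2 := by
    refine (norm_sub_le _ _).trans ?_
    rw [norm_pow, norm_zpow, hz]
    norm_num
  nlinarith [norm_nonneg ((z ^ a) ^ N - 1)]

section Root
variable {ζ : ℂ} {Q : ℕ}

theorem rsum (hζ : IsPrimitiveRoot ζ Q) (m : ℤ) :
    ∑ s ∈ Finset.range Q, (ζ ^ s) ^ m = if (Q : ℤ) ∣ m then (Q : ℂ) else 0 := by
  have e : ∀ s : ℕ, (ζ ^ s) ^ m = (ζ ^ m) ^ s := fun s => by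
    rw [← zpow_natCast, ← zpow_natCast, ← zpow_mul, ← zpow_mul, mul_comm]
  simp only [e]
  split_ifs with h
  · rw [(hζ.zpow_eq_one_iff_dvd m).2 h]
    simp
  · have h1 : ζ ^ m - 1 ≠ 0 := fun h1 => h ((hζ.zpow_eq_one_iff_dvd m).1 (sub_eq_zero.1 h1))
    have h2 := geom_sum_mul (ζ ^ m) Q
    rw [← e, hζ.pow_eq_one, one_zpow, sub_self] at h2
    exact (mul_eq_zero.1 h2).resolve_right h1

theorem sum_expand (hζ : IsPrimitiveRoot ζ Q) (hQ : Q ≠ 0) {ι : Type} {s : Finset ι} {m : ι → ℤ} {f : ℂ → ℂ}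
    (hf : ∀ z : ℂ, z ≠ 0 → f z = ∑ i ∈ s, z ^ m i) (k : ℤ) :
    ∑ t ∈ Finset.range Q, (ζ ^ t) ^ k * f (ζ ^ t) =
      ∑ i ∈ s, if (Q : ℤ) ∣ k + m i then (Q : ℂ) else 0 := by
  have h0 : ∀ t : ℕ, ζ ^ t ≠ 0 := fun t => pow_ne_zero _ (hζ.ne_zero hQ)
  simp only [fun t : ℕ => hf _ (h0 t), Finset.mul_sum]
  rw [Finset.sum_comm]
  refine Finset.sum_congr rfl fun i _ => ?_
  rw [← rsum hζ]
  refine Finset.sum_congr rfl fun t _ => ?_
  rw [zpow_add₀ (h0 t)]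

theorem posA (hζ : IsPrimitiveRoot ζ Q) (hQ : Q ≠ 0) {L : Len G} {y : G} {r : ℕ} {f : ℂ → ℂ}
    (hf : Pos L y r f) (k : ℤ) : 0 ≤ (∑ t ∈ Finset.range Q, (ζ ^ t) ^ k * f (ζ ^ t)).re := by
  obtain ⟨ι, s, m, -, hf⟩ := hf
  rw [sum_expand hζ hQ hf, Complex.re_sum]
  refine Finset.sum_nonneg fun i _ => ?_
  split_ifs <;> simp

theorem zeroA (hζ : IsPrimitiveRoot ζ Q) (hQ : Q ≠ 0) {L : Len G} {y : G} {r : ℕ} {f : ℂ → ℂ}
    (hf : Pos L y r f) (h : ∀ m : ℤ, L.l (y ^ m) ≤ r → ¬ (Q : ℤ) ∣ 1 + m) :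
    ∑ t ∈ Finset.range Q, ζ ^ t * f (ζ ^ t) = 0 := by
  obtain ⟨ι, s, m, hm, hf⟩ := hf
  have := sum_expand hζ hQ hf 1
  simp only [zpow_one] at this
  rw [this]
  exact Finset.sum_eq_zero fun i hi => if_neg (h _ (hm i hi))

theorem domA (hζ : IsPrimitiveRoot ζ Q) (hQ : Q ≠ 0) {L : Len G} {y : G} {r : ℕ} {f : ℂ → ℂ}
    (hf : Pos L y r f) (N : ℕ) (a : ℤ) :
    (N : ℝ) * (∑ t ∈ Finset.range Q, f (ζ ^ t)).re ≤
      (∑ t ∈ Finset.range Q, Kf N a (ζ ^ t) * f (ζ ^ t)).re := by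
  classical
  unfold Kf
  simp only [Finset.sum_mul]
  have e : (N : ℝ) * (∑ t ∈ Finset.range Q, f (ζ ^ t)).re =
      ∑ _i ∈ Finset.range N, (∑ t ∈ Finset.range Q, f (ζ ^ t)).re := by
    rw [Finset.sum_const (s := Finset.range N), Finset.card_range, nsmul_eq_mul]
  rw [e, Finset.sum_comm, Finset.sum_product, Complex.re_sum (Finset.range N)]
  refine Finset.sum_le_sum fun i hi => ?_
  rw [Complex.re_sum (Finset.range N)]
  refine le_trans (le_of_eq ?_) (Finset.single_le_sum (f := fun j : ℕ =>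
    (∑ t ∈ Finset.range Q, (ζ ^ t) ^ (a * ((i : ℤ) - (j : ℤ))) * f (ζ ^ t)).re)
    (fun j _ => posA hζ hQ hf _) hi)
  simp

/-- the averaging argument -/
theorem exists_root (hζ : IsPrimitiveRoot ζ Q) (hQ : Q ≠ 0) {L : Len G} {y : G} {R K : ℕ} (hK : 1 ≤ K)
    (A : Finset ℤ) (hA : A.card ≤ K) (hR : ∀ a ∈ A, L.l (y ^ a) ≤ R)
    (h : ∀ m : ℤ, L.l (y ^ m) ≤ 1024 * K ^ 2 * R → ¬ (Q : ℤ) ∣ 1 + m) :
    ∃ t : ℕ, (ζ ^ t).re ≤ 1 / 2 ∧ ∀ a ∈ A, ‖(ζ ^ t) ^ a - 1‖ ≤ 1 / 8 := by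
  classical
  set N : ℕ := 1024 * K with hN
  have hn : ∀ t : ℕ, ‖ζ ^ t‖ = 1 := fun t => by rw [norm_pow, hζ.norm'_eq_one hQ, one_pow]
  -- real weights
  set w : Finset ℤ → ℕ → ℝ := fun B t => ∏ a ∈ B, ‖Fs N a (ζ ^ t)‖ ^ 2 with hw
  have hw0 : ∀ B t, 0 ≤ w B t := fun B t => Finset.prod_nonneg fun a _ => sq_nonneg _
  have hwc : ∀ (B : Finset ℤ) (t : ℕ), ∏ a ∈ B, Kf N a (ζ ^ t) = (w B t : ℂ) := fun B t => by
    simp only [hw, Complex.ofReal_prod]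
    exact Finset.prod_congr rfl fun a _ => Kf_eq N a (hn t)
  have hP : ∀ B : Finset ℤ, B ⊆ A → Pos L y (B.card * (N * R)) (fun z => ∏ a ∈ B, Kf N a z) := fun B hB =>
    Pos.prod B (Kf N) fun a ha => Kf_pos L y N (hR a (hB ha))
  set W : ℝ := ∑ t ∈ Finset.range Q, w A t with hW
  have hNpos : (0 : ℝ) < N := by
    have : 0 < N := by omega
    exact_mod_cast this
  have hWpos : 0 < W := by
    refine Finset.sum_pos' (fun t _ => hw0 A t) ⟨0, Finset.mem_range.2 (Nat.pos_of_ne_zero hQ), ?_⟩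
    refine Finset.prod_pos fun a _ => ?_
    have : Fs N a (ζ ^ 0) = N := by simp [Fs]
    rw [this, Complex.norm_natCast]
    positivity
  have h1 : ∑ t ∈ Finset.range Q, w A t * (ζ ^ t).re = 0 := by
    have := zeroA hζ hQ (hP A subset_rfl) fun m hm => h m (hm.trans (by
      calc A.card * (N * R) ≤ K * (N * R) := Nat.mul_le_mul_right _ hA
        _ = 1024 * K ^ 2 * R := by rw [hN]; ring))
    have h2 := congrArg Complex.re this
    rw [Complex.re_sum] at h2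
    simp only [hwc, Complex.mul_re, Complex.ofReal_re, Complex.ofReal_im, mul_zero, sub_zero,
      Complex.zero_re] at h2
    rw [← h2]
    exact Finset.sum_congr rfl fun t _ => mul_comm _ _
  have h2 : ∀ a ∈ A, (N : ℝ) * ∑ t ∈ Finset.range Q, w A t * ‖(ζ ^ t) ^ a - 1‖ ^ 2 ≤ 4 * W := by
    intro a ha
    have e : ∀ t, w A t = ‖Fs N a (ζ ^ t)‖ ^ 2 * w (A.erase a) t := fun t =>
      (Finset.mul_prod_erase A (fun a => ‖Fs N a (ζ ^ t)‖ ^ 2) ha).symm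
    have d := domA hζ hQ (hP (A.erase a) (Finset.erase_subset _ _)) N a
    simp only [hwc, fun t => Kf_eq N a (hn t), ← Complex.ofReal_mul, ← Complex.ofReal_sum,
      Complex.ofReal_re, ← e] at d
    have d2 : ∑ t ∈ Finset.range Q, w A t * ‖(ζ ^ t) ^ a - 1‖ ^ 2 ≤
        4 * ∑ t ∈ Finset.range Q, w (A.erase a) t := by
      rw [Finset.mul_sum]
      refine Finset.sum_le_sum fun t _ => ?_
      rw [e t, mul_right_comm]
      exact mul_le_mul_of_nonneg_right (Fs_bound N a (hn t)) (hw0 _ _)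
    calc _ ≤ (N : ℝ) * (4 * ∑ t ∈ Finset.range Q, w (A.erase a) t) := mul_le_mul_of_nonneg_left d2 hNpos.le
      _ = 4 * ((N : ℝ) * ∑ t ∈ Finset.range Q, w (A.erase a) t) := by ring
      _ ≤ 4 * W := by linarith
  have h3 : ∑ t ∈ Finset.range Q, w A t * ((ζ ^ t).re + 96 * ∑ a ∈ A, ‖(ζ ^ t) ^ a - 1‖ ^ 2) ≤ 3 / 8 * W := by
    have e : ∑ t ∈ Finset.range Q, w A t * ((ζ ^ t).re + 96 * ∑ a ∈ A, ‖(ζ ^ t) ^ a - 1‖ ^ 2) =
        96 * ∑ a ∈ A, ∑ t ∈ Finset.range Q, w A t * ‖(ζ ^ t) ^ a - 1‖ ^ 2 := by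
      simp only [mul_add, Finset.sum_add_distrib, h1, zero_add]
      rw [Finset.sum_comm, Finset.mul_sum]
      refine Finset.sum_congr rfl fun t _ => ?_
      rw [← Finset.mul_sum]
      ring
    rw [e]
    have h4 : (N : ℝ) * ∑ a ∈ A, ∑ t ∈ Finset.range Q, w A t * ‖(ζ ^ t) ^ a - 1‖ ^ 2 ≤ K * (4 * W) := by
      rw [Finset.mul_sum]
      refine (Finset.sum_le_card_nsmul _ _ _ h2).trans ?_
      rw [nsmul_eq_mul]
      exact mul_le_mul_of_nonneg_right (by exact_mod_cast hA) (by positivity)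
    have hK' : (0 : ℝ) < K := by exact_mod_cast hK
    have hN' : (N : ℝ) = K * 1024 := by rw [hN]; push_cast; ring
    rw [hN', mul_assoc] at h4
    have h5 := le_of_mul_le_mul_left h4 hK'
    linarith
  by_contra hcon
  have h4 : ∀ t : ℕ, 1 / 2 ≤ (ζ ^ t).re + 96 * ∑ a ∈ A, ‖(ζ ^ t) ^ a - 1‖ ^ 2 := by
    intro t
    have hs : 0 ≤ ∑ a ∈ A, ‖(ζ ^ t) ^ a - 1‖ ^ 2 := Finset.sum_nonneg fun a _ => sq_nonneg _
    by_cases hre : (ζ ^ t).re ≤ 1 / 2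
    · have : ∃ a ∈ A, 1 / 8 < ‖(ζ ^ t) ^ a - 1‖ := by
        by_contra h5
        exact hcon ⟨t, hre, fun a ha => not_lt.1 fun h6 => h5 ⟨a, ha, h6⟩⟩
      obtain ⟨a, ha, h6⟩ := this
      have h7 : ‖(ζ ^ t) ^ a - 1‖ ^ 2 ≤ ∑ a ∈ A, ‖(ζ ^ t) ^ a - 1‖ ^ 2 :=
        Finset.single_le_sum (f := fun a => ‖(ζ ^ t) ^ a - 1‖ ^ 2) (fun a _ => sq_nonneg _) ha
      have h8 : -1 ≤ (ζ ^ t).re := by
        have := Complex.abs_re_le_norm (ζ ^ t)
        rw [hn t] at this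
        exact (abs_le.1 this).1
      nlinarith
    · linarith [not_le.1 hre]
  have h5 : ∑ t ∈ Finset.range Q, w A t * (1 / 2) ≤
      ∑ t ∈ Finset.range Q, w A t * ((ζ ^ t).re + 96 * ∑ a ∈ A, ‖(ζ ^ t) ^ a - 1‖ ^ 2) :=
    Finset.sum_le_sum fun t _ => mul_le_mul_of_nonneg_left (h4 t) (hw0 _ _)
  rw [← Finset.sum_mul] at h5
  linarith

end Root

theorem exists_bound {S : Set ℤ} (hS : S.Finite) : ∃ B : ℕ, ∀ n ∈ S, n.natAbs ≤ B := by
  obtain ⟨B, hB⟩ := (hS.image Int.natAbs).bddAbove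
  exact ⟨B, fun n hn => hB ⟨n, hn, rfl⟩⟩

theorem finite_exp (L : Len G) {y : G} (hy : ¬ IsOfFinOrder y) (r : ℕ) : {n : ℤ | L.l (y ^ n) ≤ r}.Finite :=
  (L.fin r).preimage (f := fun n : ℤ => y ^ n) (injective_zpow_iff_not_isOfFinOrder.2 hy).injOn

theorem exists_Q (L : Len G) (y : G) {r : ℕ} (hr : r < L.l y) :
    ∃ Q : ℕ, Q ≠ 0 ∧ (∀ n : ℤ, y ^ n = 1 → (Q : ℤ) ∣ n) ∧ ∀ m : ℤ, L.l (y ^ m) ≤ r → ¬ (Q : ℤ) ∣ 1 + m := by
  have key : ∀ m : ℤ, L.l (y ^ m) ≤ r → y ^ (1 + m) ≠ 1 := by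
    intro m hm h
    rw [zpow_add, zpow_one] at h
    have e : y ^ m = y⁻¹ := eq_inv_of_mul_eq_one_right h
    rw [e, L.l_inv] at hm
    omega
  by_cases hy : IsOfFinOrder y
  · refine ⟨orderOf y, hy.orderOf_pos.ne', fun n hn => orderOf_dvd_iff_zpow_eq_one.2 hn, fun m hm h => ?_⟩
    exact key m hm (orderOf_dvd_iff_zpow_eq_one.1 h)
  · obtain ⟨B, hB⟩ := exists_bound (finite_exp L hy r)
    refine ⟨B + 2, by omega, fun n hn => ?_, fun m hm h => ?_⟩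
    · have : n = 0 := injective_zpow_iff_not_isOfFinOrder.2 hy (by simpa using hn)
      simp [this]
    · have h1 : 1 + m ≠ 0 := fun h1 => key m hm (by rw [h1, zpow_zero])
      have h2 := hB m hm
      have h3 := Int.natAbs_le_of_dvd_ne_zero h h1
      omega

theorem exists_A (L : Len G) (y : G) (R : ℕ) :
    ∃ A : Finset ℤ, A.card ≤ L.b ^ R ∧ (∀ a ∈ A, L.l (y ^ a) ≤ R) ∧
      ∀ n : ℤ, L.l (y ^ n) ≤ R → ∃ a ∈ A, y ^ a = y ^ n := by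
  classical
  let ex : G → ℤ := fun h => Classical.epsilon fun n : ℤ => y ^ n = h
  have hex : ∀ n : ℤ, y ^ ex (y ^ n) = y ^ n := fun n =>
    Classical.epsilon_spec (p := fun k : ℤ => y ^ k = y ^ n) ⟨n, rfl⟩
  refine ⟨((L.fin R).toFinset.filter fun h => ∃ n : ℤ, y ^ n = h).image ex, ?_, ?_, fun n hn => ?_⟩
  · exact Finset.card_image_le.trans ((Finset.card_filter_le _ _).trans (L.card R))
  · intro a ha
    obtain ⟨h, hh, rfl⟩ := Finset.mem_image.1 ha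
    obtain ⟨h1, n, rfl⟩ := Finset.mem_filter.1 hh
    rw [hex]
    exact (Set.Finite.mem_toFinset (L.fin R)).1 h1
  · exact ⟨ex (y ^ n), Finset.mem_image.2 ⟨y ^ n, Finset.mem_filter.2
      ⟨(Set.Finite.mem_toFinset (L.fin R)).2 hn, n, rfl⟩, rfl⟩, hex n⟩

theorem far (L : Len G) (R : ℕ) (y : G) (hy : 1024 * L.b ^ (2 * R) * R < L.l y) : ∃ χ, CharSpec L R y χ := by
  obtain ⟨Q, hQ, hQ1, hQ2⟩ := exists_Q L y hy
  obtain ⟨A, hA, hR, hA2⟩ := exists_A L y R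
  have hζ := Complex.isPrimitiveRoot_exp Q hQ
  generalize Complex.exp (2 * Real.pi * I / Q) = ζ at hζ
  have hK : 1 ≤ L.b ^ R := Nat.one_le_pow _ _ (by have := L.two_le; omega)
  obtain ⟨t, ht1, ht2⟩ := exists_root hζ hQ hK A hA hR fun m hm => hQ2 m (by rwa [← pow_mul, mul_comm R 2] at hm)
  have h1 : ∀ n : ℤ, y ^ n = 1 → (ζ ^ t) ^ n = 1 := fun n hn => by
    rw [← zpow_natCast, ← zpow_mul]
    exact (hζ.zpow_eq_one_iff_dvd _).2 ((hQ1 n hn).mul_left _)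
  refine ⟨ζ ^ t, by rw [norm_pow, hζ.norm'_eq_one hQ, one_pow], ht1, h1, fun n hn => ?_⟩
  obtain ⟨a, ha, e⟩ := hA2 n hn
  have h2 := h1 (n - a) (by rw [zpow_sub, e, mul_inv_cancel])
  have h0 : ζ ^ t ≠ 0 := pow_ne_zero _ (hζ.ne_zero hQ)
  rw [zpow_sub₀ h0, div_eq_one_iff_eq (zpow_ne_zero _ h0)] at h2
  rw [h2]
  exact ht2 a ha

theorem near (L : Len G) (R M : ℕ) : ∃ q0 : ℕ, 1 ≤ q0 ∧ ∀ y, L.l y < M → ¬ IsOfFinOrder y → ∀ n : ℤ,
    L.l (y ^ n) ≤ R → ‖Complex.exp (2 * Real.pi * I / ((q0 + 1 : ℕ) : ℂ)) ^ n - 1‖ ≤ 1 / 8 := by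
  have hS : (⋃ y ∈ {y : G | L.l y ≤ M ∧ ¬ IsOfFinOrder y}, {n : ℤ | L.l (y ^ n) ≤ R}).Finite :=
    ((L.fin M).subset fun y hy => hy.1).biUnion fun y hy => finite_exp L hy.2 R
  obtain ⟨B, hB⟩ := exists_bound hS
  refine ⟨64 * B + 1, by omega, fun y hy hy2 n hn => ?_⟩
  have h1 : n.natAbs ≤ B := hB n (Set.mem_biUnion (x := y) ⟨hy.le, hy2⟩ hn)
  have e : Complex.exp (2 * Real.pi * I / ((64 * B + 1 + 1 : ℕ) : ℂ)) ^ n =
      Complex.exp (I * ((n * (2 * Real.pi) / ((64 * B + 1 + 1 : ℕ) : ℝ) : ℝ) : ℂ)) := by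
    rw [← Complex.exp_int_mul]
    congr 1
    push_cast
    ring
  rw [e]
  refine Real.norm_exp_I_mul_ofReal_sub_one_le.trans ?_
  have hB0 : (0 : ℝ) ≤ B := Nat.cast_nonneg _
  have h2 : |(n : ℝ)| ≤ B := by
    rw [← Int.cast_abs, Int.abs_eq_natAbs]
    exact_mod_cast h1
  rw [Real.norm_eq_abs, abs_div, abs_mul, abs_of_pos (a := 2 * Real.pi) (by positivity),
    abs_of_pos (a := ((64 * B + 1 + 1 : ℕ) : ℝ)) (by positivity), div_le_iff₀ (by positivity)]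
  push_cast
  have h3 := Real.pi_le_four
  have h4 := Real.pi_pos
  nlinarith [abs_nonneg (n : ℝ)]

end M

theorem stM : StM := fun _ _ L R => ⟨M.far L R, M.near L R⟩

end Crest.Agent.R192
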